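import Mathlib

/-!
# P207, dimension 3 (the line N3): the abstract interface `Leaf`

The geometry behind the structure. `X` is the bundle of orthonormal frames `x = (q; v, E₁, E₂)` of
the universal cover, `Γ` the deck group, `B` the boundary at infinity, `φ` the frame flow,
`em x = v⁻` and `ep x = v⁺` are the end points, `lv x` is the Busemann function of `em x` at the
foot point `q` (normalised at a fixed base point), `rot` changes `(E₁, E₂)` by an orthogonal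
matrix, `flip (q; v, E₁, E₂) = (q; -v, E₁, E₂)`. The unstable leaf of `x` is `U_ξ = B ∖ {ξ}`,
`ξ = em x`, with the chart `e x : ball 0 3 → U_ξ`, `e x u = w(ξ, exp_q (r₀ (u₁ E₁ + u₂ E₂)))⁺`.
`hol ξ x` is the frame `y` with `em y = ξ` which is positively asymptotic to `x` (stable holonomy).
-/

open Set Filter Topology Metric MeasureTheory
open scoped ContDiff

noncomputable section

namespace Vale.Agent.P207.N3

/-- the plane -/
abbrev E2 : Type := EuclideanSpace ℝ (Fin 2)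

/-- the orthogonal group of the plane -/
abbrev O2 : Type := E2 ≃ₗᵢ[ℝ] E2

/-- space -/
abbrev E3 : Type := EuclideanSpace ℝ (Fin 3)

/-- the orthogonal group of the space -/
abbrev O3 : Type := E3 ≃ₗᵢ[ℝ] E3

/-! ### Transition maps -/

section Tau

variable {X B : Type}

/-- The domain of the transition map from the chart `e x` to the chart `e y`. -/
def dom (e : X → E2 → B) (x y : X) : Set E2 :=
  {u | u ∈ ball (0 : E2) 3 ∧ e x u ∈ e y '' ball (0 : E2) 3}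

/-- The transition map `(e y)⁻¹ ∘ e x`. -/
def tau (e : X → E2 → B) (x y : X) (u : E2) : E2 :=
  Function.invFunOn (e y) (closedBall (0 : E2) 3) (e x u)

end Tau

/-- (L0), (L1), (L3), (L4), (L7): the leaves of the universal cover, for a cocompact group. -/
structure Leaf (Γ X B : Type) [Group Γ] [MetricSpace X] [ProperSpace X] [MulAction Γ X]
    [IsIsometricSMul Γ X] [TopologicalSpace B] [CompactSpace B] [T2Space B] [MulAction Γ B]
    [ContinuousConstSMul Γ B] where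
  nonempty : Nonempty X
  /-- the frame flow -/
  φ : ℝ → X → X
  φ_zero : ∀ x, φ 0 x = x
  φ_add : ∀ s t x, φ (s + t) x = φ s (φ t x)
  φ_cont : Continuous fun p : ℝ × X => φ p.1 p.2
  φ_smul : ∀ (g : Γ) t x, φ t (g • x) = g • φ t x
  /-- change of the two last vectors of the frame -/
  rot : O2 → X → X
  rot_one : ∀ x, rot 1 x = x
  rot_mul : ∀ a b x, rot (a * b) x = rot b (rot a x)
  rot_cont : ∀ a, Continuous (rot a)
  rot_smul : ∀ (g : Γ) a x, rot a (g • x) = g • rot a x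
  rot_φ : ∀ a t x, rot a (φ t x) = φ t (rot a x)
  /-- `v ↦ -v` -/
  flip : X → X
  flip_flip : ∀ x, flip (flip x) = x
  flip_cont : Continuous flip
  flip_smul : ∀ (g : Γ) x, flip (g • x) = g • flip x
  flip_φ : ∀ t x, flip (φ t x) = φ (-t) (flip x)
  flip_rot : ∀ a x, flip (rot a x) = rot a (flip x)
  /-- the end point in the past -/
  em : X → B
  em_cont : Continuous em
  em_smul : ∀ (g : Γ) x, em (g • x) = g • em x
  em_φ : ∀ t x, em (φ t x) = em x
  em_rot : ∀ a x, em (rot a x) = em x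
  /-- the end point in the future -/
  ep : X → B
  ep_flip : ∀ x, ep x = em (flip x)
  em_ne_ep : ∀ x, em x ≠ ep x
  /-- the level: Busemann function of `em x` at the foot point of `x` -/
  lv : X → ℝ
  lv_cont : Continuous lv
  lv_φ : ∀ t x, lv (φ t x) = lv x + t
  lv_rot : ∀ a x, lv (rot a x) = lv x
  lv_smul : ∀ (g : Γ) x y, em x = em y → lv (g • x) - lv (g • y) = lv x - lv y
  /-- Hopf coordinates -/
  exists_frame : ∀ ξ η, ξ ≠ η → ∀ t, ∃ x, em x = ξ ∧ ep x = η ∧ lv x = t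
  frame_unique : ∀ x y, em x = em y → ep x = ep y → lv x = lv y → ∃ a, y = rot a x
  hopf_proper : ∀ K : Set (B × B), IsCompact K → (∀ p ∈ K, p.1 ≠ p.2) → ∀ c : ℝ,
    IsCompact {x | (em x, ep x) ∈ K ∧ |lv x| ≤ c}
  /-- the group is cocompact and acts properly -/
  cocompact : ∃ K : Set X, IsCompact K ∧ ∀ x, ∃ g : Γ, g • x ∈ K
  proper : ∀ K : Set X, IsCompact K → {g : Γ | ∃ x ∈ K, g • x ∈ K}.Finite
  /-- the charts of the leaves -/
  e : X → E2 → B
  e_cont : ContinuousOn (fun p : X × E2 => e p.1 p.2) (univ ×ˢ closedBall 0 3)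
  e_zero : ∀ x, e x 0 = ep x
  e_inj : ∀ x, InjOn (e x) (closedBall 0 3)
  e_ne : ∀ x, ∀ u ∈ closedBall (0 : E2) 3, e x u ≠ em x
  e_open : IsOpen {p : X × B | p.2 ∈ e p.1 '' ball 0 3}
  e_smul : ∀ (g : Γ) x, ∀ u ∈ closedBall (0 : E2) 3, e (g • x) u = g • e x u
  e_rot : ∀ a x, ∀ u ∈ closedBall (0 : E2) 3, e (rot a x) u = e x (a u)
  /-- two unit discs of one leaf which meet, at bounded difference of levels, are close -/
  near : ∀ c : ℝ, ∃ C, ∀ x y, em x = em y → |lv x - lv y| ≤ c →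
    (e x '' closedBall 0 3 ∩ e y '' closedBall 0 3).Nonempty → dist x y ≤ C
  /-- (L1) the transition maps are smooth, and depend continuously on the two frames -/
  tau_smooth : ∀ x y, em x = em y → ContDiffOn ℝ ∞ (tau e x y) (dom e x y)
  tau_cont : ∀ k : ℕ, ContinuousOn
    (fun p : (X × X) × E2 => iteratedFDeriv ℝ k (tau e p.1.1 p.1.2) p.2)
    {p | em p.1.1 = em p.1.2 ∧ p.2 ∈ dom e p.1.1 p.1.2}
  /-- (L1) contraction in the past -/
  t1 : ℝ
  t1_pos : 0 < t1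
  χ : ℝ
  χ_pos : 0 < χ
  engulf : ∀ x, ∀ t ≥ t1, e (φ t x) '' closedBall 0 3 ⊆ e x '' ball 0 1
  contract : ∀ k : ℕ, 1 ≤ k → ∃ C, ∀ x, ∀ t ≥ t1, ∀ u ∈ ball (0 : E2) 3,
    ‖iteratedFDeriv ℝ k (tau e (φ t x) x) u‖ ≤ C * Real.exp (-χ * t)
  /-- (L1) Hölder dependence of the transition maps on the frames -/
  holder : ∀ (k : ℕ) (c : ℝ), ∃ C α : ℝ, 0 < α ∧ ∀ x y x' y', em x = em y → em x' = em y' →
    |lv x - lv y| ≤ c → |lv x' - lv y'| ≤ c → ∀ u ∈ closedBall (0 : E2) 2,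
    e x u ∈ e y '' closedBall 0 2 → e x' u ∈ e y' '' closedBall 0 2 →
    ‖iteratedFDeriv ℝ k (tau e x y) u - iteratedFDeriv ℝ k (tau e x' y') u‖
      ≤ C * (dist x x' + dist y y') ^ α
  /-- (L3) stable holonomy of frames -/
  hol : B → X → X
  hol_em : ∀ ξ x, ξ ≠ ep x → em (hol ξ x) = ξ
  hol_ep : ∀ ξ x, ξ ≠ ep x → ep (hol ξ x) = ep x
  hol_lp : ∀ ξ x, ξ ≠ ep x → lv (flip (hol ξ x)) = lv (flip x)
  hol_self : ∀ x, hol (em x) x = x
  hol_hol : ∀ ξ ξ' x, ξ ≠ ep x → ξ' ≠ ep x → hol ξ' (hol ξ x) = hol ξ' x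
  hol_φ : ∀ t ξ x, ξ ≠ ep x → hol ξ (φ t x) = φ t (hol ξ x)
  hol_rot : ∀ a ξ x, ξ ≠ ep x → hol ξ (rot a x) = rot a (hol ξ x)
  hol_smul : ∀ (g : Γ) ξ x, ξ ≠ ep x → hol (g • ξ) (g • x) = g • hol ξ x
  hol_cont : ContinuousOn (fun p : B × X => hol p.1 p.2) {p | p.1 ≠ ep p.2}
  hol_asym : ∀ K : Set (B × X), IsCompact K → (∀ p ∈ K, p.1 ≠ ep p.2) →
    ∃ C, ∀ p ∈ K, ∀ t ≥ (0 : ℝ), dist (φ t p.2) (φ t (hol p.1 p.2)) ≤ C * Real.exp (-χ * t)
  /-- (L4) every orbit of `Γ` on the boundary is dense -/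
  dense_orbit : ∀ η : B, Dense (range fun g : Γ => g • η)
  /-- (L4) the images of an open piece of a leaf become dense -/
  dense_leaf : ∀ (x : X) (V : Set E2), IsOpen V → V ⊆ ball 0 3 → V.Nonempty → ∀ (T : ℝ)
    (W : Set X), IsOpen W → W.Nonempty →
    ∃ (g : Γ) (y : X), em y = em x ∧ ep y ∈ e x '' V ∧ T ≤ lv y ∧ g • y ∈ W
  /-- (L7) every nontrivial element has an axis -/
  exists_axis : ∀ β : Γ, β ≠ 1 → ∃ (x : X) (l : ℝ) (a : O2), 0 < l ∧ β • x = φ l (rot a x)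

variable {Γ X B : Type} [Group Γ] [MetricSpace X] [ProperSpace X] [MulAction Γ X]
  [IsIsometricSMul Γ X] [TopologicalSpace B] [CompactSpace B] [T2Space B] [MulAction Γ B]
  [ContinuousConstSMul Γ B]

namespace Leaf

/-- `lv x + lv (flip x)` is a function of the end points: `D (em x) (ep x)`, where
`D ξ η = -2 (ξ|η)`. -/
def lp (L : Leaf Γ X B) (x : X) : ℝ := L.lv (L.flip x)

/-- the transition map `(e y)⁻¹ ∘ e x` -/
def τ (L : Leaf Γ X B) (x y : X) : E2 → E2 := tau L.e x y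

/-- the domain of the transition map -/
def dm (L : Leaf Γ X B) (x y : X) : Set E2 := dom L.e x y

/-- A function on the leaf `U_ξ = B ∖ {ξ}` is smooth. -/
def SmoothOn (L : Leaf Γ X B) {V : Type} [NormedAddCommGroup V] [NormedSpace ℝ V] (ξ : B)
    (f : B → V) : Prop :=
  ∀ x, L.em x = ξ → ContDiffOn ℝ ∞ (fun u => f (L.e x u)) (ball 0 3)

/-- `x` is a frame on the axis of `β`, with period `l` and holonomy `a`. -/
structure IsAxis (L : Leaf Γ X B) (β : Γ) (x : X) (l : ℝ) (a : O2) : Prop where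
  pos : 0 < l
  eq : β • x = L.φ l (L.rot a x)

end Leaf

/-- (L5) Margulis areas. `s x` is the density, in the chart `e x`, of the area `σ_x` of the leaf,
`σ_{φ_t x} = e^{ht} σ_x`; the measure `ν` of `B` is `ν(dη) = e^{h D(ξ,η)} σ_ξ(dη)` for all `ξ`,
where `σ_ξ = e^{-h lv x} σ_x` and `D (em x) (ep x) = lv x + lp x` (invariance under the stable
holonomy). -/
structure Area (L : Leaf Γ X B) [MeasurableSpace B] [BorelSpace B] where
  h : ℝ
  h_pos : 0 < h
  s : X → E2 → ℝ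
  s_pos : ∀ x, ∀ u ∈ ball (0 : E2) 3, 0 < s x u
  s_smooth : ∀ x, ContDiffOn ℝ ∞ (s x) (ball 0 3)
  s_cont : ∀ k : ℕ, ContinuousOn (fun p : X × E2 => iteratedFDeriv ℝ k (s p.1) p.2)
    (univ ×ˢ ball 0 3)
  s_smul : ∀ (g : Γ) x, ∀ u ∈ ball (0 : E2) 3, s (g • x) u = s x u
  s_trans : ∀ x y, L.em x = L.em y → ∀ u ∈ L.dm x y,
    s x u = Real.exp (h * (L.lv x - L.lv y)) * |(fderiv ℝ (L.τ x y) u).det| * s y (L.τ x y u)
  ν : Measure B
  ν_finite : IsFiniteMeasure ν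
  ν_ne : ν ≠ 0
  ν_point : ∀ ξ : B, ν {ξ} = 0
  /-- the function `D` -/
  D : B → B → ℝ
  D_eq : ∀ x, D (L.em x) (L.ep x) = L.lv x + L.lp x
  ν_chart : ∀ (x : X) (A : Set E2), MeasurableSet A → A ⊆ ball 0 3 →
    ∫⁻ u in A, ENNReal.ofReal (Real.exp (-h * L.lv x) * s x u)
      = ∫⁻ η in L.e x '' A, ENNReal.ofReal (Real.exp (-h * D (L.em x) η)) ∂ν

/-- (L6) The stable subspaces as a symmetric tensor `N x u : (R²)* → R²` along the leaf, relative
to the vertical complement. -/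
structure Tens (L : Leaf Γ X B) where
  N : X → E2 → E2 →L[ℝ] E2
  N_symm : ∀ x u v w, inner ℝ (N x u v) w = inner ℝ v (N x u w)
  N_cont : ContinuousOn (fun p : X × E2 => N p.1 p.2) (univ ×ˢ ball 0 3)
  N_smul : ∀ (g : Γ) x, ∀ u ∈ ball (0 : E2) 3, N (g • x) u = N x u
  N_rot : ∀ a x, ∀ u ∈ ball (0 : E2) 3, ∀ v, N (L.rot a x) u v = a.symm (N x (a u) (a v))
  /-- `N_y (τ u) = Dτ N_x(u) Dτᵀ + R`, `R` smooth -/
  R : X → X → E2 → E2 →L[ℝ] E2
  R_eq : ∀ x y, L.em x = L.em y → ∀ u ∈ L.dm x y,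
    N y (L.τ x y u) = fderiv ℝ (L.τ x y) u ∘L N x u ∘L
      ContinuousLinearMap.adjoint (fderiv ℝ (L.τ x y) u) + R x y u
  R_smooth : ∀ x y, L.em x = L.em y → ContDiffOn ℝ ∞ (R x y) (L.dm x y)
  R_cont : ∀ k : ℕ, ContinuousOn (fun p : (X × X) × E2 => iteratedFDeriv ℝ k (R p.1.1 p.1.2) p.2)
    {p | L.em p.1.1 = L.em p.1.2 ∧ p.2 ∈ L.dm p.1.1 p.1.2}
  /-- uniform bounds of `R` on the whole discs, for bounded times -/
  R_bound : ∀ (k : ℕ) (T : ℝ), ∃ C, ∀ x, ∀ t ∈ Icc L.t1 T, ∀ u ∈ ball (0 : E2) 3,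
    ‖iteratedFDeriv ℝ k (R (L.φ t x) x) u‖ ≤ C

/-- (L9) The frames at one point. -/
structure Fiber (L : Leaf Γ X B) where
  fib : O3 → X
  fib_cont : ∀ (Y : Type) [TopologicalSpace Y] (R : Y → O3),
    (Continuous fun p : Y × E3 => R p.1 p.2) → Continuous fun y => fib (R y)
  /-- the orthogonal map of the space which is `a` on the last two coordinates -/
  ext : O2 → O3
  ext_zero : ∀ a v, ext a v 0 = v 0
  ext_succ : ∀ a v i, ext a v (Fin.succ i) = a (!₂[v 1, v 2]) i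
  fib_rot : ∀ R a, fib (R * ext a) = L.rot a (fib R)

end Vale.Agent.P207.N3
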